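import Vale.Agent.P088.H442.C.Defs
import Vale.Agent.P088.H776.A3
import Vale.Agent.P088.H53.D
import Vale.Agent.P088.H501.A12

/-!
# P088, Theorem C, row C_LP: Fourier transforms of functions supported in the core
-/

open MeasureTheory Set
open scoped ContDiff Matrix

noncomputable section

namespace Vale.Agent.P088.H323

open Vale.Agent.P088.LR Vale.Agent.P088.LR.CF Vale.Agent.P088.LR.CC Vale.Agent.P088.H776

variable {n : ℕ}

lemma core_closed (n : ℕ) : IsClosed (core n) := by
  have h : core n = ⋂ j, {x : V n | 1 / 4 ≤ x j} ∩ {x : V n | x j ≤ 3 / 4} := by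
    ext x
    simp [core]
  rw [h]
  exact isClosed_iInter fun j =>
    (isClosed_le continuous_const (continuous_apply j)).inter
      (isClosed_le (continuous_apply j) continuous_const)

lemma core_sub_cube (n : ℕ) : core n ⊆ cube n := fun x hx j =>
  ⟨by have := (hx j).1; linarith, by have := (hx j).2; linarith⟩

lemma cube_open (n : ℕ) : IsOpen (cube n) := by
  have h : cube n = ⋂ j, {x : V n | 0 < x j} ∩ {x : V n | x j < 1} := by
    ext x
    simp [cube]
  rw [h]
  exact isOpen_iInter_of_finite fun j =>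
    (isOpen_lt continuous_const (continuous_apply j)).inter
      (isOpen_lt (continuous_apply j) continuous_const)

lemma tsup_core {f : V n → ℂ} (h0 : ∀ x ∉ core n, f x = 0) : tsupport f ⊆ core n := by
  refine closure_minimal (fun x hx => ?_) (core_closed n)
  by_contra h
  exact hx (h0 x h)

lemma tsup_cube {f : V n → ℂ} (h0 : ∀ x ∉ core n, f x = 0) : tsupport f ⊆ cube n :=
  (tsup_core h0).trans (core_sub_cube n)

lemma nr_nonneg (ξ : V n) : 0 ≤ nr ξ := Real.sqrt_nonneg _

lemma norm_ex_sub (ξ η : V n) {x : V n} (hx : x ∈ cube n) :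
    ‖ex ξ x - ex η x‖ ≤ 2 * Real.pi * (n + 1) * nr (fun j => ξ j - η j) := by
  have h1 : ex ξ x - ex η x = ex η x * (Complex.exp (Complex.I *
      ((2 * Real.pi * ∑ j, (ξ j - η j) * x j : ℝ) : ℂ)) - 1) := by
    rw [mul_sub, mul_one]
    congr 1
    unfold ex
    rw [← Complex.exp_add]
    congr 1
    have h2 : ∑ j, (ξ j - η j) * x j = ∑ j, ξ j * x j - ∑ j, η j * x j := by
      rw [← Finset.sum_sub_distrib]
      exact Finset.sum_congr rfl fun j _ => by ring
    rw [h2]
    push_cast
    ring
  rw [h1, norm_mul, ex_norm, one_mul]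
  have h3 : ‖Complex.exp (Complex.I * ((2 * Real.pi * ∑ j, (ξ j - η j) * x j : ℝ) : ℂ)) - 1‖ ≤
      ‖(2 * Real.pi * ∑ j, (ξ j - η j) * x j : ℝ)‖ := Real.norm_exp_I_mul_ofReal_sub_one_le
  refine h3.trans ?_
  have h4 : |∑ j, (ξ j - η j) * x j| ≤ nr (fun j => ξ j - η j) * √(∑ j, x j ^ 2) := by
    rw [abs_le]
    constructor
    · have h5 := Real.sum_mul_le_sqrt_mul_sqrt Finset.univ (fun j => -(ξ j - η j)) x
      have h6 : ∑ j, -(ξ j - η j) * x j = -∑ j, (ξ j - η j) * x j := by
        rw [← Finset.sum_neg_distrib]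
        exact Finset.sum_congr rfl fun j _ => by ring
      have h7 : ∑ j, (-(ξ j - η j)) ^ 2 = ∑ j, (ξ j - η j) ^ 2 :=
        Finset.sum_congr rfl fun j _ => by ring
      rw [h6, h7] at h5
      unfold nr
      linarith
    · exact Real.sum_mul_le_sqrt_mul_sqrt Finset.univ (fun j => ξ j - η j) x
  have h5 : √(∑ j, x j ^ 2) ≤ n + 1 := by
    refine (Real.sqrt_le_sqrt (y := (n : ℝ)) ?_).trans ?_
    · have h6 : ∑ j, x j ^ 2 ≤ ∑ _j : Fin n, (1 : ℝ) := Finset.sum_le_sum fun j _ => by
        have := hx j
        nlinarith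
      simpa using h6
    · rw [Real.sqrt_le_left (by positivity)]
      have : (0 : ℝ) ≤ n := Nat.cast_nonneg n
      nlinarith
  rw [Real.norm_eq_abs, abs_mul, abs_of_pos (by positivity : 0 < 2 * Real.pi)]
  have hpi := Real.pi_pos
  calc 2 * Real.pi * |∑ j, (ξ j - η j) * x j|
      ≤ 2 * Real.pi * (nr (fun j => ξ j - η j) * (n + 1)) :=
        mul_le_mul_of_nonneg_left (h4.trans (mul_le_mul_of_nonneg_left h5 (nr_nonneg _)))
          (by positivity)
    _ = _ := by ring

/-- **(C_LP)** -/
theorem rowLP : RowLPC := by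
  intro n
  have hpi := Real.pi_gt_three
  have hn : (0 : ℝ) ≤ n := Nat.cast_nonneg n
  have hC : (1 : ℝ) ≤ 2 * Real.pi * (n + 1) := by nlinarith
  refine ⟨2 * Real.pi * (n + 1), hC, fun f hf h0 a ha => ?_⟩
  have ha0 : 0 ≤ a := (norm_nonneg _).trans (ha 0)
  have hs := tsup_cube h0
  constructor
  · intro ξ
    have h1 : Cl 0 a f := by
      intro l hl x
      have h2 : l = 0 := by omega
      subst h2
      rw [norm_iteratedFDeriv_zero]
      exact ha x
    have h3 := ft_bound 0 hf hs h1 ξ none
    simp only [Option.elim_none, pow_zero, one_mul] at h3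
    exact h3.trans (le_mul_of_one_le_left ha0 hC)
  · intro ξ η
    have hint : ∀ ζ : V n, Integrable (fun x => f x * ex (-ζ) x) := fun ζ =>
      (hf.continuous.mul (ex_contDiff _).continuous).integrable_of_hasCompactSupport
        ((cube_compact hs).mul_right)
    have h1 : ft f ξ - ft f η = ∫ x, f x * (ex (-ξ) x - ex (-η) x) := by
      unfold ft
      rw [← integral_sub (hint ξ) (hint η)]
      exact integral_congr_ae (Filter.Eventually.of_forall fun x => by ring)
    have h2 : ∫ x, f x * (ex (-ξ) x - ex (-η) x) =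
        ∫ x in cube n, f x * (ex (-ξ) x - ex (-η) x) := by
      refine (setIntegral_eq_integral_of_forall_compl_eq_zero fun x hx => ?_).symm
      have : f x = 0 := by
        by_contra h
        exact hx (hs (subset_tsupport f h))
      rw [this, zero_mul]
    rw [h1, h2]
    have h3 := norm_setIntegral_le_of_norm_le_const (μ := (volume : Measure (V n))) (s := cube n)
      (f := fun x => f x * (ex (-ξ) x - ex (-η) x))
      (C := a * (2 * Real.pi * (n + 1) * nr (fun j => ξ j - η j)))
      (by rw [vol_cube]; exact ENNReal.one_lt_top)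
      (fun x hx => by
        rw [norm_mul]
        refine mul_le_mul (ha x) ?_ (norm_nonneg _) ha0
        have h4 := norm_ex_sub (-ξ) (-η) hx
        have h5 : nr (fun j => (-ξ) j - (-η) j) = nr (fun j => ξ j - η j) := by
          unfold nr
          congr 1
          refine Finset.sum_congr rfl fun j _ => ?_
          simp only [Pi.neg_apply]
          ring
        rwa [h5] at h4)
    have h4 : (volume : Measure (V n)).real (cube n) = 1 := by
      rw [Measure.real, vol_cube]; rfl
    rw [h4, mul_one] at h3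
    refine h3.trans (le_of_eq ?_)
    ring

end Vale.Agent.P088.H323
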