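import Vale.Agent.P088.H323.CLp

/-!
# P088, Theorem C, rows C_SU and C_IN: low frequencies and the tail, interpolation
-/

open MeasureTheory Set
open scoped ContDiff Matrix

noncomputable section

namespace Vale.Agent.P088.H323

open Vale.Agent.P088.LR Vale.Agent.P088.LR.CF Vale.Agent.P088.LR.CC Vale.Agent.P088.H776

variable {n : ℕ}

lemma fr_zero' (k : Ix n) : fr 0 k = fun j => (k j : ℝ) := by
  funext j
  simp [fr]

lemma nr_le_sum (ξ : V n) : nr ξ ≤ ∑ j, |ξ j| := by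
  have h0 : 0 ≤ ∑ j, |ξ j| := Finset.sum_nonneg fun _ _ => abs_nonneg _
  unfold nr
  rw [Real.sqrt_le_left h0]
  have h1 : ∀ j, ξ j ^ 2 ≤ |ξ j| * ∑ i, |ξ i| := fun j => by
    rw [← sq_abs, sq]
    exact mul_le_mul_of_nonneg_left
      (Finset.single_le_sum (f := fun i => |ξ i|) (fun _ _ => abs_nonneg _) (Finset.mem_univ j))
      (abs_nonneg _)
  calc ∑ j, ξ j ^ 2 ≤ ∑ j, |ξ j| * ∑ i, |ξ i| := Finset.sum_le_sum fun j _ => h1 j
    _ = (∑ j, |ξ j|) ^ 2 := by rw [← Finset.sum_mul, sq]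

lemma abs_le_nr (ξ : V n) (j : Fin n) : |ξ j| ≤ nr ξ := by
  unfold nr
  rw [← Real.sqrt_sq_eq_abs]
  exact Real.sqrt_le_sqrt
    (Finset.single_le_sum (f := fun i => ξ i ^ 2) (fun _ _ => sq_nonneg _) (Finset.mem_univ j))

lemma iter_zero_off {f : V n → ℂ} (h0 : ∀ x ∉ core n, f x = 0) (l : ℕ) {x : V n}
    (hx : x ∉ core n) : iteratedFDeriv ℝ l f x = 0 := by
  have h1 : f =ᶠ[nhds x] fun _ => 0 := by
    filter_upwards [(core_closed n).isOpen_compl.mem_nhds hx] with y hy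
    exact h0 y hy
  rw [(h1.iteratedFDeriv ℝ l).eq_of_nhds]
  have h := iteratedFDeriv_fun_zero (𝕜 := ℝ) (E := V n) (F := ℂ) (n := l)
  exact congrFun h x

lemma cl_of_nm {f : V n → ℂ} (hf : ContDiff ℝ ∞ f) (h0 : ∀ x ∉ core n, f x = 0) (m : ℕ) :
    Cl m ((2 * Real.pi) ^ m * nm m (cf 0 f)) f := by
  intro l hl x
  have hs := tsup_cube h0
  have hpi := Real.pi_gt_three
  have hrd : RD (cf 0 f) := cf_RD hf hs (θ := 0) fun j => by simp
  by_cases hx : x ∈ core n
  · obtain ⟨C, -, hC⟩ := rowA3 n 0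
    have h1 := (hC f hf hs 0 fun j => by simp).2.1
    have h2 : f =ᶠ[nhds x] Es 0 (cf 0 f) := by
      filter_upwards [(cube_open n).mem_nhds (core_sub_cube n hx)] with y hy
      exact h1 y hy
    rw [(h2.iteratedFDeriv ℝ l).eq_of_nhds]
    refine (G.norm_iter_Es H501.rowA1 l hrd x).trans ?_
    refine mul_le_mul (pow_le_pow_right₀ (by linarith) hl) (G.nm_mono _ hrd hl)
      (G.nm_nonneg _ _) (by positivity)
  · rw [iter_zero_off h0 l hx, norm_zero]
    have := G.nm_nonneg m (cf 0 f)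
    positivity

lemma card_box (n : ℕ) {K : ℝ} (hK : 1 ≤ K) :
    ((Fintype.piFinset fun _ : Fin n => Finset.Icc (-⌊K⌋) ⌊K⌋).card : ℝ) ≤ (3 * K) ^ n := by
  rw [Fintype.card_piFinset]
  simp only [Int.card_Icc, Finset.prod_const, Finset.card_univ, Fintype.card_fin]
  push_cast
  refine pow_le_pow_left₀ (by positivity) ?_ n
  have h1 : (0 : ℤ) ≤ ⌊K⌋ := Int.floor_nonneg.2 (by linarith)
  have h2 : (((⌊K⌋ + 1 - -⌊K⌋).toNat : ℕ) : ℝ) = ((⌊K⌋ + 1 - -⌊K⌋ : ℤ) : ℝ) := by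
    have h3 : (((⌊K⌋ + 1 - -⌊K⌋).toNat : ℕ) : ℤ) = ⌊K⌋ + 1 - -⌊K⌋ := Int.toNat_of_nonneg (by omega)
    exact_mod_cast congrArg (fun z : ℤ => (z : ℝ)) h3
  rw [h2]
  push_cast
  have h4 := Int.floor_le K
  linarith

/-- The estimate of the weighted norm: low frequencies and the tail. -/
lemma nm_split {f : V n → ℂ} (hf : ContDiff ℝ ∞ f) (h0 : ∀ x ∉ core n, f x = 0) (m L : ℕ)
    {K d H : ℝ} (hK : 1 ≤ K) (hd : 0 ≤ d) (hH : 0 ≤ H)
    (hlow : ∀ ξ : V n, nr ξ ≤ K → ‖ft f ξ‖ ≤ d) (hB : Cl (m + L + n + 1) H f) :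
    nm m (cf 0 f) ≤ (3 * K) ^ n * (((n : ℝ) + 1) * K) ^ m * d +
      ((n : ℝ) + 1) ^ (m + L + n + 1) * H / K ^ L * ∑' k : Ix n, (wt k ^ (n + 1))⁻¹ := by
  classical
  have hs := tsup_cube h0
  have hrd : RD (cf 0 f) := cf_RD hf hs (θ := 0) fun j => by simp
  have hn : (0 : ℝ) ≤ n := Nat.cast_nonneg n
  have hK0 : 0 < K := by linarith
  set T : Finset (Ix n) := Fintype.piFinset fun _ : Fin n => Finset.Icc (-⌊K⌋) ⌊K⌋ with hT
  set b : ℝ := (((n : ℝ) + 1) * K) ^ m * d with hb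
  have hb0 : 0 ≤ b := by positivity
  set A : ℝ := ((n : ℝ) + 1) ^ (m + L + n + 1) * H / K ^ L with hA
  have hA0 : 0 ≤ A := by positivity
  have hwz : ∀ k : Ix n, wt k = 1 + ∑ j, |fr 0 k j| := fun k => by rw [fr_zero']; rfl
  have hterm : ∀ k : Ix n, wt k ^ m * ‖cf 0 f k‖ ≤
      (if k ∈ T then b else 0) + A * (wt k ^ (n + 1))⁻¹ := by
    intro k
    have hw := wt_pos k
    have hw' : 0 < (wt k ^ (n + 1))⁻¹ := by positivity
    by_cases hk : nr (fr 0 k) ≤ K
    · have hk1 : ∀ j, |(k j : ℝ)| ≤ K := fun j => by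
        have h1 := abs_le_nr (fr 0 k) j
        rw [fr_zero'] at h1 hk
        exact h1.trans hk
      have hmem : k ∈ T := by
        rw [hT, Fintype.mem_piFinset]
        intro j
        have h1 := abs_le.1 (hk1 j)
        rw [Finset.mem_Icc]
        constructor
        · have h2 : -k j ≤ ⌊K⌋ := Int.le_floor.2 (by push_cast; linarith [h1.1])
          omega
        · exact Int.le_floor.2 h1.2
      rw [if_pos hmem]
      have h2 : wt k ≤ (n + 1) * K := by
        have h3 : ∑ j, |(k j : ℝ)| ≤ ∑ _j : Fin n, K := Finset.sum_le_sum fun j _ => hk1 j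
        rw [Finset.sum_const, Finset.card_univ, Fintype.card_fin, nsmul_eq_mul] at h3
        unfold wt
        nlinarith
      have h3 : wt k ^ m * ‖cf 0 f k‖ ≤ b :=
        mul_le_mul (pow_le_pow_left₀ hw.le h2 m) (hlow _ hk) (norm_nonneg _) (by positivity)
      have h4 : 0 ≤ A * (wt k ^ (n + 1))⁻¹ := mul_nonneg hA0 hw'.le
      linarith
    · push Not at hk
      have h1 : K ≤ wt k := by
        have h2 := nr_le_sum (fr 0 k)
        rw [hwz k]
        linarith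
      have h2 := cf_decay hf hs hB (θ := 0) (fun j => by simp) k
      have h3 : wt k ^ m * ‖cf 0 f k‖ ≤ A * (wt k ^ (n + 1))⁻¹ := by
        rw [hA, ← div_eq_mul_inv, div_div, le_div_iff₀ (by positivity)]
        calc wt k ^ m * ‖cf 0 f k‖ * (K ^ L * wt k ^ (n + 1))
            ≤ wt k ^ m * ‖cf 0 f k‖ * (wt k ^ L * wt k ^ (n + 1)) := by
              refine mul_le_mul_of_nonneg_left ?_ (by positivity)
              exact mul_le_mul_of_nonneg_right (pow_le_pow_left₀ hK0.le h1 L) (by positivity)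
          _ = wt k ^ (m + L + n + 1) * ‖cf 0 f k‖ := by
              rw [show m + L + n + 1 = m + L + (n + 1) from rfl, pow_add, pow_add]; ring
          _ ≤ _ := h2
      have h4 : (0 : ℝ) ≤ if k ∈ T then b else 0 := by split_ifs <;> simp [hb0]
      linarith
  have hS1 : Summable fun k : Ix n => if k ∈ T then b else 0 :=
    summable_of_ne_finset_zero (s := T) fun k hk => by simp [hk]
  have hS2 : Summable fun k : Ix n => A * (wt k ^ (n + 1))⁻¹ := (sum_wt n).mul_left A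
  have h1 : nm m (cf 0 f) ≤ ∑' k : Ix n, ((if k ∈ T then b else 0) + A * (wt k ^ (n + 1))⁻¹) :=
    (hrd m).tsum_le_tsum hterm (hS1.add hS2)
  rw [hS1.tsum_add hS2, tsum_mul_left] at h1
  have h2 : ∑' k : Ix n, (if k ∈ T then b else 0) = T.card * b := by
    rw [tsum_eq_sum (s := T) fun k hk => by simp [hk]]
    rw [Finset.sum_ite_mem, Finset.inter_self, Finset.sum_const, nsmul_eq_mul]
  rw [h2] at h1
  refine h1.trans ?_
  have h3 : (T.card : ℝ) * b ≤ (3 * K) ^ n * b := mul_le_mul_of_nonneg_right (card_box n hK) hb0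
  rw [hb, ← mul_assoc] at h3
  linarith

/-- **(C_SU)** -/
theorem rowSU : RowSUC := by
  intro n m L
  set S : ℝ := ∑' k : Ix n, (wt k ^ (n + 1))⁻¹ with hS
  have hS0 : 0 ≤ S := tsum_nonneg fun k => by have := wt_pos k; positivity
  set C : ℝ := (2 * Real.pi) ^ m * (3 ^ n * ((n : ℝ) + 1) ^ m +
    ((n : ℝ) + 1) ^ (m + L + n + 1) * S) + 1 with hC
  have hpi := Real.pi_pos
  refine ⟨C, by rw [hC]; linarith [show (0 : ℝ) ≤ (2 * Real.pi) ^ m * (3 ^ n * ((n : ℝ) + 1) ^ m +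
    ((n : ℝ) + 1) ^ (m + L + n + 1) * S) by positivity], fun K d H hK hd hH f hf h0 hlow hB => ?_⟩
  have hK0 : 0 < K := by linarith
  have h1 := nm_split hf h0 m L hK hd hH hlow hB
  have h2 : (2 * Real.pi) ^ m * nm m (cf 0 f) ≤ C * (K ^ (m + n) * d + H / K ^ L) := by
    calc (2 * Real.pi) ^ m * nm m (cf 0 f)
        ≤ (2 * Real.pi) ^ m * ((3 * K) ^ n * (((n : ℝ) + 1) * K) ^ m * d +
          ((n : ℝ) + 1) ^ (m + L + n + 1) * H / K ^ L * S) :=
          mul_le_mul_of_nonneg_left h1 (by positivity)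
      _ = (2 * Real.pi) ^ m * ((3 ^ n * ((n : ℝ) + 1) ^ m) * (K ^ (m + n) * d) +
          (((n : ℝ) + 1) ^ (m + L + n + 1) * S) * (H / K ^ L)) := by
          rw [mul_pow 3 K n, mul_pow ((n : ℝ) + 1) K m, pow_add K]; ring
      _ ≤ (2 * Real.pi) ^ m * ((3 ^ n * ((n : ℝ) + 1) ^ m +
            ((n : ℝ) + 1) ^ (m + L + n + 1) * S) * (K ^ (m + n) * d + H / K ^ L)) := by
          refine mul_le_mul_of_nonneg_left ?_ (by positivity)
          have e1 : 0 ≤ K ^ (m + n) * d := by positivity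
          have e2 : 0 ≤ H / K ^ L := by positivity
          have e3 : (0 : ℝ) ≤ 3 ^ n * ((n : ℝ) + 1) ^ m := by positivity
          have e4 : (0 : ℝ) ≤ ((n : ℝ) + 1) ^ (m + L + n + 1) * S := by positivity
          nlinarith [mul_nonneg e3 e2, mul_nonneg e4 e1]
      _ ≤ C * (K ^ (m + n) * d + H / K ^ L) := by
          have e1 : 0 ≤ K ^ (m + n) * d := by positivity
          have e2 : 0 ≤ H / K ^ L := by positivity
          have e3 : C * (K ^ (m + n) * d + H / K ^ L) = (2 * Real.pi) ^ m * ((3 ^ n *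
              ((n : ℝ) + 1) ^ m + ((n : ℝ) + 1) ^ (m + L + n + 1) * S) *
              (K ^ (m + n) * d + H / K ^ L)) + (K ^ (m + n) * d + H / K ^ L) := by
            rw [hC]; ring
          rw [e3]
          linarith
  exact fun l hl x => (cl_of_nm hf h0 m l hl x).trans h2

/-- **(C_IN)** -/
theorem rowIN : RowINC := by
  intro n m
  set p : ℕ := m + n + 1 with hp
  obtain ⟨C₁, hC₁, h₁⟩ := rowLP n
  obtain ⟨C₂, hC₂, h₂⟩ := rowSU n m p
  refine ⟨m + p + n + 1, C₂ * (C₁ + 1), by nlinarith, fun f hf h0 a ha ha1 hca hc1 => ?_⟩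
  have hfa : ∀ x, ‖f x‖ ≤ a := fun x => cl_zero hca x
  rcases ha.eq_or_lt with ha0 | ha0
  · subst ha0
    have hf0 : f = fun _ => 0 := by
      funext x
      exact norm_le_zero_iff.1 (hfa x)
    intro l _ x
    rw [hf0]
    have h := iteratedFDeriv_fun_zero (𝕜 := ℝ) (E := V n) (F := ℂ) (n := l)
    rw [congrFun h x]
    simp
  · have hs0 : 0 < √a := Real.sqrt_pos.2 ha0
    have hs1 : √a ≤ 1 := Real.sqrt_le_one.2 ha1
    set K : ℝ := ((√a)⁻¹) ^ ((p : ℝ)⁻¹) with hK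
    have hp0 : p ≠ 0 := by omega
    have hKp : K ^ p = (√a)⁻¹ := Real.rpow_inv_natCast_pow (by positivity) hp0
    have hK1 : 1 ≤ K := Real.one_le_rpow ((one_le_inv₀ hs0).2 hs1) (by positivity)
    have h3 : ∀ ξ : V n, nr ξ ≤ K → ‖ft f ξ‖ ≤ C₁ * a := fun ξ _ => (h₁ f hf h0 a hfa).1 ξ
    have h4 := h₂ K (C₁ * a) 1 hK1 (by positivity) zero_le_one f hf h0 h3 hc1
    have h5 : C₂ * (K ^ (m + n) * (C₁ * a) + 1 / K ^ p) ≤ C₂ * (C₁ + 1) * √a := by
      have e1 : K ^ (m + n) ≤ K ^ p := pow_le_pow_right₀ hK1 (by omega)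
      have e2 : (√a)⁻¹ * a = √a := by
        rw [inv_mul_eq_div, div_eq_iff hs0.ne', Real.mul_self_sqrt ha]
      have e3 : K ^ (m + n) * (C₁ * a) ≤ C₁ * √a := by
        calc K ^ (m + n) * (C₁ * a) ≤ K ^ p * (C₁ * a) :=
              mul_le_mul_of_nonneg_right e1 (by positivity)
          _ = C₁ * ((√a)⁻¹ * a) := by rw [hKp]; ring
          _ = C₁ * √a := by rw [e2]
      have e4 : 1 / K ^ p = √a := by rw [hKp, one_div, inv_inv]
      rw [e4, mul_assoc]
      refine mul_le_mul_of_nonneg_left ?_ (by linarith)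
      linarith
    exact fun l hl x => (h4 l hl x).trans h5

end Vale.Agent.P088.H323
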