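import Vale.Agent.P088.H833.D.Defs
import Vale.Agent.P088.H323.CSu

/-!
# P088, Theorem D, row D_SM: the conformal factor of the second metric is near the base factor
-/

open MeasureTheory Set
open scoped ContDiff Matrix

noncomputable section

namespace Vale.Agent.P088.H323

open Vale.Agent.P088.LR Vale.Agent.P088.LR.CF Vale.Agent.P088.LR.CC Vale.Agent.P088.LR.CD
  Vale.Agent.P088.H776

variable {n : ℕ}

lemma bal_core323 : bal n ⊆ core n := by
  intro x hx j
  have h1 : (x j - 1 / 2) ^ 2 ≤ 1 / 16 :=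
    (Finset.single_le_sum (f := fun j => (x j - 1 / 2) ^ 2) (fun _ _ => sq_nonneg _)
      (Finset.mem_univ j)).trans hx
  constructor <;> nlinarith

lemma cx_smooth {f : V n → ℝ} (hf : ContDiff ℝ ∞ f) : ContDiff ℝ ∞ (cx f) :=
  Complex.ofRealCLM.contDiff.comp hf

lemma cl_sub323 {k : ℕ} {a b : ℝ} {f g : V n → ℂ} (hf : ContDiff ℝ ∞ f) (hg : ContDiff ℝ ∞ g)
    (h1 : Cl k a f) (h2 : Cl k b g) : Cl k (a + b) (fun x => f x - g x) := by
  intro l hl x
  have : iteratedFDeriv ℝ l (fun x => f x - g x) x =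
      iteratedFDeriv ℝ l f x - iteratedFDeriv ℝ l g x :=
    iteratedFDeriv_sub_apply (hf.of_le (by exact_mod_cast le_top)).contDiffAt
      (hg.of_le (by exact_mod_cast le_top)).contDiffAt
  rw [this]
  exact (norm_sub_le _ _).trans (add_le_add (h1 l hl x) (h2 l hl x))

lemma cl_le323 {k l : ℕ} {a b : ℝ} {f : V n → ℂ} (h : Cl k a f) (hl : l ≤ k) (hab : a ≤ b) :
    Cl l b f := fun i hi x => (h i (hi.trans hl) x).trans hab

lemma b2_self {φ q₀ : V n → ℝ} (h : Ba φ q₀) : B2 (∅ : Set (V n)) φ q₀ φ (fun _ => 1) q₀ where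
  ba := h
  op := isOpen_empty
  reg := by simp
  sub := Set.empty_subset _
  p₂ := h.p
  off₂ := fun _ _ => rfl
  sm := fun _ _ => contDiff_const
  sy := fun _ => Matrix.isSymm_one
  off := fun _ _ => rfl
  sq := h.sq
  eq := h.eq
  st := fun U W _ _ _ _ => by simp [bl]

/-- **(D_SM)** -/
theorem smd (QB : RowQBD) (GG : RowGGD) (BA : RowBAD) (EN : RowEND) : RowSMD := by
  intro n hn
  refine ⟨n + 4, fun φ q₀ hba B η hη => ?_⟩
  -- the bound of the base potential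
  have hq0 : ∀ x ∉ core n, cx q₀ x = 0 := fun x hx => by
    have h1 := (BA _ _ _ _ _ _ (b2_self hba)).1 x fun h => hx (bal_core323 h)
    simp [cx, h1]
  obtain ⟨B₀, hB₀⟩ := exists_cl (cx_smooth hba.sq) (cube_compact (tsup_cube hq0)) (n + 2)
  obtain ⟨CQ, hCQ, hQ⟩ := QB n (n + 2) B
  have hB0n : 0 ≤ B₀ := (norm_nonneg _).trans (cl_zero hB₀ 0)
  obtain ⟨CG, hCG, hG⟩ := GG n hn (B₀ + CQ)
  obtain ⟨CE, hCE, hE⟩ := EN n (by omega) φ q₀ hba B
  obtain ⟨CS, hCS, hS⟩ := rowSU n 0 1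
  -- the constants
  set δ : ℝ := η / CE with hδ
  have hδ0 : 0 < δ := by positivity
  set H : ℝ := B₀ + CQ with hH
  have hH0 : 0 < H := by linarith
  set K : ℝ := max 1 (2 * CS * H / δ) with hK
  have hK1 : 1 ≤ K := le_max_left _ _
  have hK0 : 0 < K := by linarith
  have hKH : CS * (H / K) ≤ δ / 2 := by
    have h1 : 2 * CS * H / δ ≤ K := le_max_right _ _
    rw [div_le_iff₀ hδ0] at h1
    rw [← mul_div_assoc, div_le_iff₀ hK0]
    linarith
  set d : ℝ := δ / (2 * CS * K ^ n) with hd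
  have hd0 : 0 < d := by positivity
  have hdK : CS * (K ^ n * d) = δ / 2 := by
    rw [hd]; field_simp
  set X : ℝ := max (max CG (2 * K)) (2 * CG / d) with hX
  have hX1 : CG ≤ X := (le_max_left _ _).trans (le_max_left _ _)
  have hX2 : 2 * K ≤ X := (le_max_right _ _).trans (le_max_left _ _)
  have hX0 : 0 < X := by linarith
  have hX3 : CG * (1 / X) ≤ d / 2 := by
    have h1 : 2 * CG / d ≤ X := le_max_right _ _
    rw [div_le_iff₀ hd0] at h1
    rw [mul_one_div, div_le_iff₀ hX0]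
    linarith
  set ε : ℝ := min (min (d / (2 * CG * X ^ 2)) (1 / (CG * X))) (min 1 δ) with hε
  have hε0 : 0 < ε := by positivity
  have hε1 : CG * (X ^ 2 * ε) ≤ d / 2 := by
    have h1 : ε ≤ d / (2 * CG * X ^ 2) := (min_le_left _ _).trans (min_le_left _ _)
    rw [le_div_iff₀ (by positivity)] at h1
    linarith
  have hε2 : CG * X * ε ≤ 1 := by
    have h1 : ε ≤ 1 / (CG * X) := (min_le_left _ _).trans (min_le_right _ _)
    rw [le_div_iff₀ (by positivity)] at h1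
    linarith
  have hε3 : ε ≤ 1 := (min_le_right _ _).trans (min_le_left _ _)
  have hε4 : ε ≤ δ := (min_le_right _ _).trans (min_le_right _ _)
  refine ⟨ε, hε0, fun Ω φ₂ t q hB2 hφ₂ hinv ht => ?_⟩
  obtain ⟨b1, b2, -⟩ := BA Ω φ q₀ φ₂ t q hB2
  have hq : Cl (n + 2) CQ (cx q) :=
    hQ φ₂ q t hB2.p₂ hB2.sm hB2.sq hB2.eq (cl_le323 hφ₂ (by omega) le_rfl) hinv
      fun i j => cl_le323 (ht i j) (by omega) hε3
  have hcq := cx_smooth hB2.sq
  have hcq0 := cx_smooth hba.sq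
  have hf0 : ∀ x ∉ core n, (fun x => cx q x - cx q₀ x) x = 0 := fun x hx => by
    have hx' : x ∉ bal n := fun h => hx (bal_core323 h)
    simp [cx, b1 x hx', b2 x hx']
  have hlow : ∀ ξ : V n, nr ξ ≤ K → ‖ft (fun x => cx q x - cx q₀ x) ξ‖ ≤ d := by
    intro ξ hξ
    have h1 := hG ξ X hX1 (by linarith) Ω φ q₀ φ₂ t q hB2
      (cl_le323 hB₀ (by omega) (by linarith)) (cl_le323 hq (by omega) (by linarith)) ε hε0.le
      (fun i j => cl_le323 (ht i j) (by omega) le_rfl) hε2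
    refine h1.trans ?_
    rw [mul_add]
    linarith
  have hcl : Cl (0 + 1 + n + 1) H (fun x => cx q x - cx q₀ x) :=
    cl_le323 (cl_sub323 hcq hcq0 hq hB₀) (by omega) (by rw [hH, add_comm])
  have h2 := hS K d H hK1 hd0.le hH0.le _ (hcq.sub hcq0) hf0 hlow hcl
  have h3 : CS * (K ^ (0 + n) * d + H / K ^ 1) ≤ δ := by
    rw [zero_add, pow_one, mul_add, hdK]
    linarith
  have h4 : ∀ x, ‖cx q x - cx q₀ x‖ ≤ δ := fun x => (cl_zero h2 x).trans h3
  have h5 := hE Ω φ₂ t q hB2 (cl_le323 hφ₂ (by omega) le_rfl) δ hδ0.le h4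
    fun i j => cl_le323 (ht i j) (by omega) hε4
  intro x
  refine (h5 x).trans (le_of_eq ?_)
  rw [hδ]
  field_simp

end Vale.Agent.P088.H323
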